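import Vale.Agent.P073.Defs
import Vale.Agent.P073.Defs2
import Vale.Agent.P073.Defs3
import Vale.Agent.P073.Inv2
import Vale.Agent.P073.Vert

/-!
# P073: fibre-preserving Sobolev homeomorphisms are diffeomorphically approximable
-/

open MeasureTheory Set
open scoped ENNReal

namespace Vale.Agent.Results.P073.FibrePreserving

open Vale.Agent.P073

/-- (1) If every `W^{1,p}` homeomorphism of `Ω` onto `Λ` is diffeomorphically approximable, so
is every `W^{1,p}` homeomorphism of `Ω × (0, 1)` onto `Λ × (0, 1)` that maps vertical segments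
into vertical segments. (2) The same for a single map `f (x, z) = (φ x, h (x, z))` over an
approximable homeomorphism `φ`. (3) Every triangular `W^{1,p}` homeomorphism of the open cube
in any dimension is diffeomorphically approximable. (4) Approximability is invariant under
smooth changes of coordinates with bounded derivatives on both sides. (5) For every bounded
open set `U`, every `W^{1,p}` homeomorphism of `U` onto `U` that maps each maximal segment of
`U` parallel to a coordinate axis into itself, increasingly, is diffeomorphically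
approximable. -/
theorem result :
    (∀ (n : ℕ) (p : ℝ≥0∞), 1 ≤ p → p ≠ ⊤ → ∀ (Ω Λ : Set (X n)),
      IsOpen Ω → IsPreconnected Ω → Bornology.IsBounded Ω → IsOpen Λ →
      (∀ φ : X n → X n, IsW1pHomeo p φ Ω Λ → Approximable p φ Ω Λ) →
      ∀ f : X (n + 1) → X (n + 1), IsW1pHomeo p f (Cyl Ω) (Cyl Λ) →
        (∀ y ∈ Cyl Ω, ∀ y' ∈ Cyl Ω, ini y = ini y' → ini (f y) = ini (f y')) →
        Approximable p f (Cyl Ω) (Cyl Λ)) ∧
    (∀ (n : ℕ) (p : ℝ≥0∞), 1 ≤ p → p ≠ ⊤ → ∀ (Ω Λ : Set (X n)),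
      IsOpen Ω → IsPreconnected Ω → Bornology.IsBounded Ω → IsOpen Λ →
      ∀ φ : X n → X n, IsHomeo φ Ω Λ → Approximable p φ Ω Λ →
      ∀ f : X (n + 1) → X (n + 1), IsW1pHomeo p f (Cyl Ω) (Cyl Λ) →
        (∀ y ∈ Cyl Ω, ini (f y) = φ (ini y)) → Approximable p f (Cyl Ω) (Cyl Λ)) ∧
    (∀ (n : ℕ) (p : ℝ≥0∞), 1 ≤ p → p ≠ ⊤ → ∀ f : X n → X n,
      IsW1pHomeo p f (cube n) (cube n) → Triangular f →
      Approximable p f (cube n) (cube n)) ∧
    (∀ (n : ℕ) (p : ℝ≥0∞), 1 ≤ p → p ≠ ⊤ → ∀ (U Ω Λ V : Set (X n)),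
      IsOpen U → Bornology.IsBounded U → IsOpen Ω → Bornology.IsBounded Ω →
      IsOpen Λ → Bornology.IsBounded V →
      ∀ β α f : X n → X n, NiceDiffeo β U Ω → NiceDiffeo α Λ V → MapsTo f Ω Λ →
        Approximable p f Ω Λ → Approximable p (fun x => α (f (β x))) U V) ∧
    (∀ (n : ℕ) (p : ℝ≥0∞), 1 ≤ p → p ≠ ⊤ → ∀ (U : Set (X n)),
      IsOpen U → Bornology.IsBounded U → ∀ (e : Fin n) (f : X n → X n),
      IsW1pHomeo p f U U → SegmentPreserving e f U → Approximable p f U U) :=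
  ⟨fun _ p hp hp' _ _ hΩ hc hb hΛ hbase _ hf hfib =>
      fibre_of_base p hp hp' hΩ hb hc hΛ hbase hf hfib,
    fun _ p hp hp' _ _ hΩ hc hb hΛ _ hφ happ _ hf hfib =>
      main p hp hp' hΩ hb hc hΛ hφ happ hf hfib,
    fun _ p hp hp' f hf ht => triangular p hp hp' f hf ht,
    fun _ _ hp hp' _ _ _ _ hU hbU hΩ hbΩ hΛ hbV _ _ _ hβ hα hfm hf =>
      invariance hp hp' hU hbU hΩ hbΩ hΛ hbV hβ hα hfm hf,
    fun _ p hp hp' _ hU hb e _ hf hs => vert p hp hp' hU hb e hf hs⟩

end Vale.Agent.Results.P073.FibrePreserving
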